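import Vale.Agent.P030.H284.Value
import Vale.Agent.P030.H905.Read

/-!
# P030, route N: kernel checked bounds of the weights on the 17 reading circles

`accU` : upper bounds of `∑ q log N` with signed charges, all levels at once;
`n4_of_check` : the bounds `ω g = w g / 2 ^ 40` for the weights of a table (helper905's `Read`).
-/

namespace Vale.Agent.P030.H284

open Vale.Agent.P030.T
open Vale.Agent.P030.H476 (lo up lo_le le_up)
open Vale.Agent.P030.H462.TA (Tab Ent Lin)
open Vale.Agent.P030.H866 (Sc)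
open Vale.Agent.P030.H905.Rd (vP n0 n0_nonneg readOk readSum tvar W_Sc_le den cv)

/-- upper bound of `2 ^ 40 * q * log N` -/
def tU (q : ℤ) (u l : ℕ) : ℤ := if 0 ≤ q then q * (u : ℤ) else q * (l : ℤ)

/-- lower bound of `2 ^ 40 * q * log N` -/
def tL (q : ℤ) (u l : ℕ) : ℤ := if 0 ≤ q then q * (l : ℤ) else q * (u : ℤ)

theorem tU_ge (q : ℤ) (N : ℕ) : 2 ^ 40 * ((q : ℝ) * Real.log N) ≤ (tU q (up N) (lo N) : ℝ) := by
  unfold tU
  split_ifs with h
  · have h' : (0 : ℝ) ≤ q := by exact_mod_cast h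
    have := mul_le_mul_of_nonneg_left (le_up N) h'
    push_cast
    linarith
  · have h' : (0 : ℝ) ≤ -q := by
      have : q ≤ 0 := by omega
      have : (q : ℝ) ≤ 0 := by exact_mod_cast this
      linarith
    have := mul_le_mul_of_nonneg_left (lo_le N) h'
    push_cast
    linarith

theorem tL_le (q : ℤ) (N : ℕ) : (tL q (up N) (lo N) : ℝ) ≤ 2 ^ 40 * ((q : ℝ) * Real.log N) := by
  unfold tL
  split_ifs with h
  · have h' : (0 : ℝ) ≤ q := by exact_mod_cast h
    have := mul_le_mul_of_nonneg_left (lo_le N) h'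
    push_cast
    linarith
  · have h' : (0 : ℝ) ≤ -q := by
      have : q ≤ 0 := by omega
      have : (q : ℝ) ≤ 0 := by exact_mod_cast this
      linarith
    have := mul_le_mul_of_nonneg_left (le_up N) h'
    push_cast
    linarith

/-- add the contributions of one entry to the accumulators of all levels -/
def add1 : List ℤ → List ℤ → ℕ → ℕ → List ℤ
  | q :: qs, a :: as, u, l => (a + tU q u l) :: add1 qs as u l
  | _, as, _, _ => as

/-- accumulators of all levels -/
def accU : List (ℕ × List ℤ) → List ℤ → List ℤ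
  | [], a => a
  | (N, q) :: es, a => accU es (add1 q a (up N) (lo N))

/-- the real sums -/
noncomputable def sR (b : ℕ) : List (ℕ × List ℤ) → ℝ
  | [] => 0
  | (N, q) :: es => (q.getD b 0 : ℝ) * Real.log N + sR b es

theorem length_add1 (qs as : List ℤ) (u l : ℕ) : (add1 qs as u l).length = as.length := by
  induction qs generalizing as with
  | nil => rfl
  | cons q qs ih =>
    cases as with
    | nil => rfl
    | cons a as => simp [add1, ih]

theorem getD_add1 (qs as : List ℤ) (u l : ℕ) (b : ℕ) (hb : b < as.length) :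
    (add1 qs as u l).getD b 0 = as.getD b 0 + tU (qs.getD b 0) u l := by
  induction qs generalizing as b with
  | nil => simp [add1, tU]
  | cons q qs ih =>
    cases as with
    | nil => simp at hb
    | cons a as =>
      cases b with
      | zero => simp [add1]
      | succ b =>
        have h : b < as.length := by simpa using hb
        have := ih as b h
        simpa [add1] using this

/-- the accumulators bound the sums -/
theorem accU_ge (es : List (ℕ × List ℤ)) (a : List ℤ) (b : ℕ) (hb : b < a.length) :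
    2 ^ 40 * sR b es + (a.getD b 0 : ℝ) ≤ ((accU es a).getD b 0 : ℝ) := by
  induction es generalizing a with
  | nil => simp [accU, sR]
  | cons e es ih =>
    obtain ⟨N, q⟩ := e
    have h1 := ih (add1 q a (up N) (lo N)) (by rw [length_add1]; exact hb)
    rw [getD_add1 _ _ _ _ _ hb] at h1
    have h2 := tU_ge (q.getD b 0) N
    simp only [accU, sR]
    push_cast at h1
    linarith

/-! ### the sums of a table -/

theorem vP_nonneg (c : Fin 4) (f g : Lin) : 0 ≤ vP c f g := by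
  have h : (0 : ℝ) ≤ ((n0 c f : ℤ) : ℝ) := n0_nonneg c f
  exact le_max_of_le_left (by exact_mod_cast h)

/-- numbers and charges of the entries at a cusp -/
def vals (c : Fin 4) (es : List Ent) : List (ℕ × List ℤ) :=
  es.map fun e => ((vP c e.f e.g).toNat, e.q.map (· * e.mult))

theorem getD_mul (q : List ℤ) (m : ℤ) (b : ℕ) :
    (q.map (· * m)).getD b 0 = q.getD b 0 * m := by
  induction q generalizing b with
  | nil => simp
  | cons a q ih =>
    cases b with
    | zero => simp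
    | succ b => simpa using ih b

theorem sR_vals (c : Fin 4) (es : List Ent) (b : ℕ) :
    sR b (vals c es) =
      (es.map fun e => ((e.q.getD b 0 * e.mult : ℤ) : ℝ) * Real.log (vP c e.f e.g : ℤ)).sum := by
  induction es with
  | nil => rfl
  | cons e es ih =>
    have h1 : ((vP c e.f e.g).toNat : ℝ) = ((vP c e.f e.g : ℤ) : ℝ) := by
      have : ((vP c e.f e.g).toNat : ℤ) = vP c e.f e.g := Int.toNat_of_nonneg (vP_nonneg c _ _)
      exact_mod_cast this
    have h2 : sR b (vals c (e :: es)) =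
        ((e.q.map (· * e.mult)).getD b 0 : ℝ) * Real.log ((vP c e.f e.g).toNat : ℝ) +
          sR b (vals c es) := rfl
    rw [h2, getD_mul, h1, ih, List.map_cons, List.sum_cons]

theorem readSum_eq (D : Tab) (c : Fin 4) (b : ℕ) : readSum D c b = sR b (vals c D.ents) :=
  (sR_vals c D.ents b).symm

/-- upper bound of `- 2 ^ 40 log ‖den c t‖` for `‖t‖ = rn / rd` -/
def dC (c : Fin 4) (rn rd : ℕ) : ℤ :=
  match c with
  | 0 => (up rd : ℤ) - lo (rd - rn)
  | 1 => -(lo 2 : ℤ)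
  | 2 => (up rd : ℤ) - lo (rd - rn)
  | 3 => (up rd : ℤ) - lo 2 - lo rn

theorem den0 (t : ℂ) : den 0 t = 1 - t := by
  simp [den, cv, sub_eq_add_neg]

theorem den1 (t : ℂ) : den 1 t = 2 := by
  simp [den, cv]

theorem den2 (t : ℂ) : den 2 t = 1 - t := by
  simp [den, cv, sub_eq_add_neg]

theorem den3 (t : ℂ) : den 3 t = 2 * t := by
  simp [den, cv]

section dens

variable {rn rd : ℕ} {t : ℂ}

theorem one_sub_bound (h0 : 0 < rn) (h1 : rn < rd) (ht : ‖t‖ = (rn : ℝ) / rd) :
    (1 - t ≠ 0) ∧ -(2 ^ 40 * Real.log ‖1 - t‖) ≤ ((up rd : ℤ) - lo (rd - rn) : ℝ) := by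
  have hrd : (0 : ℝ) < rd := by exact_mod_cast (h0.trans h1)
  have hlt : (rn : ℝ) < rd := by exact_mod_cast h1
  have h2 : 1 - (rn : ℝ) / rd ≤ ‖1 - t‖ := by
    have := norm_sub_norm_le (1 : ℂ) t
    rw [norm_one, ht] at this
    exact this
  have h3 : 1 - (rn : ℝ) / rd = ((rd - rn : ℕ) : ℝ) / rd := by
    rw [Nat.cast_sub h1.le]
    field_simp
  have h4 : (0 : ℝ) < ((rd - rn : ℕ) : ℝ) := by
    rw [Nat.cast_sub h1.le]; linarith
  have h5 : 0 < 1 - (rn : ℝ) / rd := by rw [h3]; positivity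
  have h6 := Real.log_le_log h5 h2
  rw [h3, Real.log_div h4.ne' hrd.ne'] at h6
  have h7 := le_up rd
  have h8 := lo_le (rd - rn)
  refine ⟨norm_pos_iff.1 (lt_of_lt_of_le h5 h2), ?_⟩
  push_cast
  linarith

/-- the denominators -/
theorem den_bound (c : Fin 4) (h0 : 0 < rn) (h1 : rn < rd) (ht : ‖t‖ = (rn : ℝ) / rd) :
    den c t ≠ 0 ∧ -(2 ^ 40 * Real.log ‖den c t‖) ≤ (dC c rn rd : ℝ) := by
  have hrd : (0 : ℝ) < rd := by exact_mod_cast (h0.trans h1)
  have hrn : (0 : ℝ) < rn := by exact_mod_cast h0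
  fin_cases c
  · have h := one_sub_bound h0 h1 ht
    show den 0 t ≠ 0 ∧ -(2 ^ 40 * Real.log ‖den 0 t‖) ≤ (dC 0 rn rd : ℝ)
    rw [den0, dC]
    push_cast at h ⊢
    exact h
  · show den 1 t ≠ 0 ∧ -(2 ^ 40 * Real.log ‖den 1 t‖) ≤ (dC 1 rn rd : ℝ)
    rw [den1, dC]
    refine ⟨two_ne_zero, ?_⟩
    have h := lo_le 2
    rw [show ‖(2 : ℂ)‖ = 2 by norm_num]
    push_cast at h ⊢
    linarith
  · have h := one_sub_bound h0 h1 ht
    show den 2 t ≠ 0 ∧ -(2 ^ 40 * Real.log ‖den 2 t‖) ≤ (dC 2 rn rd : ℝ)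
    rw [den2, dC]
    push_cast at h ⊢
    exact h
  · show den 3 t ≠ 0 ∧ -(2 ^ 40 * Real.log ‖den 3 t‖) ≤ (dC 3 rn rd : ℝ)
    rw [den3, dC, norm_mul, ht, show ‖(2 : ℂ)‖ = 2 by norm_num]
    have ht0 : t ≠ 0 := by
      intro h
      rw [h, norm_zero] at ht
      have : 0 < (rn : ℝ) / rd := by positivity
      linarith
    refine ⟨mul_ne_zero two_ne_zero ht0, ?_⟩
    rw [Real.log_mul two_ne_zero (by positivity), Real.log_div hrn.ne' hrd.ne']
    have h2 := lo_le 2
    have h3 := lo_le rn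
    have h4 := le_up rd
    push_cast at h2 ⊢
    linarith

end dens

/-! ### the check -/

/-- the inequality for one level, `S` = the accumulators of the cusp -/
def wOk (D : Tab) (c : Fin 4) (rn rd kn kd : ℕ) (S : List ℤ) (b : ℕ) (w : ℤ) : Bool :=
  decide (b < S.length ∧ D.mass b = 27 * D.L ∧
    (S.getD b 0 + 2 ^ 41 * D.G.getD b 0) * ((kd : ℤ) - kn) + 2 ^ 41 * tvar D b * kn +
      54 * dC c rn rd * D.L * ((kd : ℤ) - kn) ≤ w * (2 * D.L * ((kd : ℤ) - kn)))

/-- eight zeros -/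
def z8s : List ℤ := [0, 0, 0, 0, 0, 0, 0, 0]

theorem W_le_of_wOk (D : Tab) (hL : 0 < D.L) {c : Fin 4} {rn rd kn kd : ℕ} (h0 : 0 < rn)
    (h1 : rn < rd) (hk : kn < kd) (hr : readOk D c rn rd kn kd = true) {b : ℕ} {w : ℤ}
    (h : wOk D c rn rd kn kd (accU (vals c D.ents) z8s) b w = true) {t : ℂ}
    (ht : ‖t‖ = (rn : ℝ) / rd) : D.W b (Sc c t) ≤ (w : ℝ) / 2 ^ 40 := by
  obtain ⟨hd, hd2⟩ := den_bound c h0 h1 ht
  have hW := W_Sc_le D hL (h0.trans h1) hk hr ht.le hd b
  simp only [wOk, decide_eq_true_eq] at h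
  obtain ⟨hb, hm, h⟩ := h
  have hb8 : b < z8s.length := by
    have key : ∀ (es : List (ℕ × List ℤ)) (a : List ℤ), (accU es a).length = a.length := by
      intro es
      induction es with
      | nil => intro a; rfl
      | cons e es ih =>
        intro a
        obtain ⟨N, q⟩ := e
        simp only [accU]
        rw [ih, length_add1]
    rw [key] at hb
    exact hb
  have hS := accU_ge (vals c D.ents) z8s b hb8
  rw [← readSum_eq] at hS
  have hz : (z8s.getD b 0 : ℝ) = 0 := by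
    have : ∀ n, z8s.getD n 0 = 0 := by
      intro n
      unfold z8s
      match n with
      | 0 => rfl
      | 1 => rfl
      | 2 => rfl
      | 3 => rfl
      | 4 => rfl
      | 5 => rfl
      | 6 => rfl
      | 7 => rfl
      | n + 8 => simp
    rw [this b]; simp
  rw [hz, add_zero] at hS
  generalize accU (vals c D.ents) z8s = S at h hS hb
  have hL0 : (0 : ℝ) < D.L := by exact_mod_cast hL
  have hkk : (0 : ℝ) < (kd : ℝ) - kn := by
    have : (kn : ℝ) < kd := by exact_mod_cast hk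
    linarith
  have hkd : (0 : ℝ) < kd := by
    have : 0 < kd := by omega
    exact_mod_cast this
  have h' : (((S.getD b 0 + 2 ^ 41 * D.G.getD b 0) * ((kd : ℤ) - kn) + 2 ^ 41 * tvar D b * kn +
      54 * dC c rn rd * D.L * ((kd : ℤ) - kn) : ℤ) : ℝ) ≤
      ((w * (2 * D.L * ((kd : ℤ) - kn)) : ℤ) : ℝ) := by exact_mod_cast h
  push_cast at h'
  have hm' : (D.mass b : ℝ) = 27 * D.L := by
    have : ((D.mass b : ℤ) : ℝ) = ((27 * D.L : ℤ) : ℝ) := by exact_mod_cast hm
    push_cast at this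
    exact this
  rw [hm'] at hW
  refine hW.trans ?_
  have e1 : ((kn : ℝ) / kd) / (1 - (kn : ℝ) / kd) = (kn : ℝ) / ((kd : ℝ) - kn) := by
    field_simp
  rw [e1, le_div_iff₀ (by positivity : (0 : ℝ) < 2 ^ 40)]
  have e2 : ((readSum D c b / 2 + (D.G.getD b 0 : ℤ)) / D.L +
      (tvar D b : ℝ) / D.L * ((kn : ℝ) / ((kd : ℝ) - kn)) -
      27 * (D.L : ℝ) / D.L * Real.log ‖den c t‖) * 2 ^ 40 =
      ((2 ^ 40 * readSum D c b + 2 ^ 41 * (D.G.getD b 0 : ℤ)) * ((kd : ℝ) - kn) +
        2 ^ 41 * (tvar D b : ℝ) * kn +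
        54 * (-(2 ^ 40 * Real.log ‖den c t‖)) * D.L * ((kd : ℝ) - kn)) /
        (2 * D.L * ((kd : ℝ) - kn)) := by
    field_simp
    ring
  rw [e2, div_le_iff₀ (by positivity)]
  refine le_trans ?_ h'
  have h3 := mul_le_mul_of_nonneg_right hS hkk.le
  have h4 := mul_le_mul_of_nonneg_right (mul_le_mul_of_nonneg_right hd2 hL0.le) hkk.le
  nlinarith

/-- literal level sets of the 17 totals (helper866, 0-based) -/
def lvA : Gp → List ℕ
  | .z1 => [0] | .zl => [1] | .z8 => [6] | .zab => [3]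
  | .w1 => [0] | .wl => [1] | .wy => [5] | .w8 => [6] | .wab => [3] | .wf7 => [4, 5, 6]
  | .v2 => [4] | .vl => [3, 4] | .v8 => [6] | .vb => [2]
  | .x2 => [4] | .xl => [3] | .x1 => [2]

/-- the check of the groups `gs` of the cusp `c` -/
def cuspOk (D : Tab) (c : Fin 4) (rn rd kn kd : ℕ) (gs : List Gp) (w : Gp → ℤ) : Bool :=
  decide (0 < D.L ∧ 0 < rn ∧ rn < rd ∧ kn < kd) && readOk D c rn rd kn kd &&
    gs.all fun g => (lvA g).all fun b =>
      wOk D c rn rd kn kd (accU (vals c D.ents) z8s) b (w g)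

theorem W_le_of_cuspOk {D : Tab} {c : Fin 4} {rn rd kn kd : ℕ} {gs : List Gp} {w : Gp → ℤ}
    (h : cuspOk D c rn rd kn kd gs w = true) {g : Gp} (hg : g ∈ gs) {b : ℕ} (hb : b ∈ lvA g)
    {t : ℂ} (ht : ‖t‖ = (rn : ℝ) / rd) : D.W b (Sc c t) ≤ (w g : ℝ) / 2 ^ 40 := by
  simp only [cuspOk, Bool.and_eq_true, decide_eq_true_eq] at h
  obtain ⟨⟨⟨hL, h0, h1, hk⟩, hr⟩, ha⟩ := h
  exact W_le_of_wOk D hL h0 h1 hk hr (List.all_eq_true.1 (List.all_eq_true.1 ha g hg) b hb) ht

/-- all four cusps -/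
structure ReadOk (D : Tab) (R : Rad) (kn kd : Fin 4 → ℕ) (w : Gp → ℤ) : Prop where
  h0 : cuspOk D 0 (R.p 0) (R.q 0) (kn 0) (kd 0) [.z1, .zl, .z8, .zab] w = true
  h1 : cuspOk D 1 (R.p 1) (R.q 1) (kn 1) (kd 1) [.w1, .wl, .wy, .w8, .wab, .wf7] w = true
  h2 : cuspOk D 2 (R.p 2) (R.q 2) (kn 2) (kd 2) [.v2, .vl, .v8, .vb] w = true
  h3 : cuspOk D 3 (R.p 3) (R.q 3) (kn 3) (kd 3) [.x2, .xl, .x1] w = true

/-- **the bounds on the 17 reading circles** -/
theorem n4_of_check {D : Tab} {R : Rad} {kn kd : Fin 4 → ℕ} {w : Gp → ℤ}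
    (h : ReadOk D R kn kd w) (g : Gp) {t : ℂ} (ht : ‖t‖ = R.r g) {b : ℕ} (hb : b ∈ lvA g) :
    D.W b (Sc g.cusp t) ≤ (w g : ℝ) / 2 ^ 40 := by
  cases g
  case z1 => exact W_le_of_cuspOk h.h0 (by simp) hb ht
  case zl => exact W_le_of_cuspOk h.h0 (by simp) hb ht
  case z8 => exact W_le_of_cuspOk h.h0 (by simp) hb ht
  case zab => exact W_le_of_cuspOk h.h0 (by simp) hb ht
  case w1 => exact W_le_of_cuspOk h.h1 (by simp) hb ht
  case wl => exact W_le_of_cuspOk h.h1 (by simp) hb ht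
  case wy => exact W_le_of_cuspOk h.h1 (by simp) hb ht
  case w8 => exact W_le_of_cuspOk h.h1 (by simp) hb ht
  case wab => exact W_le_of_cuspOk h.h1 (by simp) hb ht
  case wf7 => exact W_le_of_cuspOk h.h1 (by simp) hb ht
  case v2 => exact W_le_of_cuspOk h.h2 (by simp) hb ht
  case vl => exact W_le_of_cuspOk h.h2 (by simp) hb ht
  case v8 => exact W_le_of_cuspOk h.h2 (by simp) hb ht
  case vb => exact W_le_of_cuspOk h.h2 (by simp) hb ht
  case x2 => exact W_le_of_cuspOk h.h3 (by simp) hb ht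
  case xl => exact W_le_of_cuspOk h.h3 (by simp) hb ht
  case x1 => exact W_le_of_cuspOk h.h3 (by simp) hb ht

end Vale.Agent.P030.H284
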