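import Vale.Agent.P030.V1.Tab
import Vale.Agent.P030.H284.Omega

/-!
# P030, route N: the reading circles of the table V1
-/

namespace Vale.Agent.P030.H284.V1

open Vale.Agent.P030.H284 Vale.Agent.P030.T

/-- radii of the reading circles -/
def rad : Rad := ⟨![1, 1, 1, 1], ![1073741825, 536870912, 1073741825, 2147483648]⟩

/-- numerators of the relative errors -/
def kn : Fin 4 → ℕ := ![1, 1, 1, 1]

/-- denominators of the relative errors -/
def kd : Fin 4 → ℕ := ![7205978, 1811324, 454282, 538175]

/-- the bounds, over `2 ^ 40` -/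
def wv : Gp → ℤ
  | .z1 => 1755505710320533
  | .zl => 1892654650844651
  | .z8 => 2537972037108402
  | .zab => 2538400698700399
  | .w1 => 1769596902936587
  | .wl => 1904154739950592
  | .wy => 1902269865157427
  | .w8 => 2576887019163674
  | .wab => 2576878027449672
  | .wf7 => 2576887019163674
  | .v2 => 2351083248372309
  | .vl => 2539822727966227
  | .v8 => 2538133794675509
  | .vb => 2484638422133961
  | .x2 => 3008728455384558
  | .xl => 3170680361023764
  | .x1 => 3109727342623297

theorem x0 : cuspOk Vale.Agent.P030.V1.tab.toTab 0 (rad.p 0) (rad.q 0) (kn 0) (kd 0)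
    [.z1, .zl, .z8, .zab] wv = true := by
  decide +kernel

theorem x1 : cuspOk Vale.Agent.P030.V1.tab.toTab 1 (rad.p 1) (rad.q 1) (kn 1) (kd 1)
    [.w1, .wl, .wy, .w8, .wab, .wf7] wv = true := by
  decide +kernel

theorem x2 : cuspOk Vale.Agent.P030.V1.tab.toTab 2 (rad.p 2) (rad.q 2) (kn 2) (kd 2)
    [.v2, .vl, .v8, .vb] wv = true := by
  decide +kernel

theorem x3 : cuspOk Vale.Agent.P030.V1.tab.toTab 3 (rad.p 3) (rad.q 3) (kn 3) (kd 3)
    [.x2, .xl, .x1] wv = true := by
  decide +kernel

theorem readOk : ReadOk Vale.Agent.P030.V1.tab.toTab rad kn kd wv := ⟨x0, x1, x2, x3⟩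

/-- lower bound of the energy, over `2 ^ 40` -/
def e0 : ℤ := 499328824510988166

/-- the final inequality, `A = 4170` -/
theorem val_ok : valCheck rad wv e0 41700000 = true := by decide +kernel

theorem rad_ok : rad.ok = true := by decide +kernel

end Vale.Agent.P030.H284.V1
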