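import Vale.Agent.P030.H866.Final
import Vale.Agent.P030.H905.PotOf
import Vale.Agent.P030.H476.LogSum
import Vale.Agent.P030.H579.DesA

/-!
# P030, route N: the value of the certificate for design A (row N10)

One radius `p c / q c` per cusp.  `Qm_radC` : the main term `Qm` in closed form;
`valCheck` : the integer inequality;  `stAF_value` : the end.
`detB_of_wallsP`, `stAR_of_wallsP` : helper866's theorems for general potentials.
-/

open Finset Filter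

namespace Vale.Agent.P030.H284

open Vale.Agent.P030.T
open Vale.Agent.P030.H579 (parA sum_Gp parA_card)
open Vale.Agent.P030.H476 (lo up lo_le le_up)
open Vale.Agent.P030.H866 (Qm Loc DetB stAR_of_det sigEquiv Tot Sc)
open Vale.Agent.P030.H905 (Pot WtP E0P nodes_boundP continuous_WtP)
open Vale.Agent.P030.H265 (WallData)

/-! ### general potentials -/

/-- the determinant bound for general potentials, from condition (C) on the walls -/
theorem detB_of_wallsP {κ ι : Type} [DecidableEq ι] [Fintype ι] [Fintype κ] (G : WallData κ ι 8)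
    (D0 : ℕ) (μ : Fin 8 → Pot) (γ : Fin 8 → ℝ) (hC : G.Cond (WtP (fun _ => D0) μ γ)) :
    DetB G (WtP (fun _ => D0) μ γ) D0 (E0P (fun _ => D0) μ γ) := by
  intro R1 ε hε
  filter_upwards [nodes_boundP G (fun _ => D0) (fun _ _ _ => le_rfl) μ γ hC hε] with s hs a v _
  exact hs (Fin (D0 * s) × Fin 8) (Fintype.card_congr (sigEquiv (D0 * s))) a v

/-- **`StAR` from the wall data**, general potentials -/
theorem stAR_of_wallsP {κ ι : Type} [DecidableEq ι] [Fintype ι] [Fintype κ]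
    (P : Par) (c0 : ℕ) (hcard : ∑ g : Gp, P.ht g = 8 * P.D0) (hD0 : 0 < P.D0)
    (r : Gp → ℝ) (hr : ∀ g, 0 < r g) (hr1 : ∀ g, r g < 1) (T : Tot P r)
    (R : Matrix (Fin 8) (Fin 8) ℂ) (hR : R.det ≠ 0) (G : WallData κ ι 8)
    (μ : Fin 8 → Pot) (γ : Fin 8 → ℝ)
    (hC : G.Cond (WtP (fun _ => P.D0) μ γ)) (ω : Gp → ℝ)
    (hloc : ∀ g, ∃ B : ℝ, ∀ t : ℂ, ‖t‖ = r g →
      Loc G (WtP (fun _ => P.D0) μ γ) B (ω g) (Sc g.cusp t)
        (R.mulVec (∑ g', ((T.al g g' : ℝ) : ℂ) • AR.tupC g' t))) :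
    StAR P c0 (E0P (fun _ => P.D0) μ γ - Qm P r ω) :=
  stAR_of_det P c0 hcard hD0 r hr hr1 T R hR G (continuous_WtP _ μ γ)
    (detB_of_wallsP G P.D0 μ γ hC) ω hloc

/-! ### one radius per cusp -/

/-- numerators and denominators of the four radii -/
structure Rad where
  p : Fin 4 → ℕ
  q : Fin 4 → ℕ

/-- all radii lie in `(0, 1)` -/
def Rad.ok (R : Rad) : Bool :=
  decide (0 < R.p 0 ∧ R.p 0 < R.q 0 ∧ 0 < R.p 1 ∧ R.p 1 < R.q 1 ∧ 0 < R.p 2 ∧ R.p 2 < R.q 2 ∧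
    0 < R.p 3 ∧ R.p 3 < R.q 3)

/-- the radius of a group -/
noncomputable def Rad.r (R : Rad) (g : Gp) : ℝ := (R.p g.cusp : ℝ) / R.q g.cusp

theorem Rad.ok_lt {R : Rad} (h : R.ok = true) (c : Fin 4) : 0 < R.p c ∧ R.p c < R.q c := by
  simp only [Rad.ok, decide_eq_true_eq] at h
  obtain ⟨h0, h0', h1, h1', h2, h2', h3, h3'⟩ := h
  fin_cases c
  · exact ⟨h0, h0'⟩
  · exact ⟨h1, h1'⟩
  · exact ⟨h2, h2'⟩
  · exact ⟨h3, h3'⟩

theorem Rad.r_pos {R : Rad} (h : R.ok = true) (g : Gp) : 0 < R.r g := by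
  obtain ⟨h1, h2⟩ := R.ok_lt h g.cusp
  have h3 : (0 : ℝ) < R.p g.cusp := by exact_mod_cast h1
  have h4 : (0 : ℝ) < R.q g.cusp := by exact_mod_cast (h1.trans h2)
  exact div_pos h3 h4

theorem Rad.r_lt {R : Rad} (h : R.ok = true) (g : Gp) : R.r g < 1 := by
  obtain ⟨h1, h2⟩ := R.ok_lt h g.cusp
  have h4 : (0 : ℝ) < R.q g.cusp := by exact_mod_cast (h1.trans h2)
  rw [Rad.r, div_lt_one h4]
  exact_mod_cast h2

theorem Rad.log_r {R : Rad} (h : R.ok = true) (g : Gp) :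
    Real.log (R.r g) = Real.log (R.p g.cusp) - Real.log (R.q g.cusp) := by
  obtain ⟨h1, h2⟩ := R.ok_lt h g.cusp
  have h3 : ((R.p g.cusp : ℕ) : ℝ) ≠ 0 := by exact_mod_cast h1.ne'
  have h4 : ((R.q g.cusp : ℕ) : ℝ) ≠ 0 := by exact_mod_cast (h1.trans h2).ne'
  rw [Rad.r, Real.log_div h3 h4]

theorem cusp3_iff (g : Gp) : (g.cusp = 3) ↔ (g = .x2 ∨ g = .xl ∨ g = .x1) := by
  cases g <;> simp [Gp.cusp]

/-- the main term in closed form -/
theorem Qm_radC {R : Rad} (h : R.ok = true) (ω : Gp → ℝ) :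
    Qm parA R.r ω = ∑ g, (parA.ht g : ℝ) * ω g
      + 1040 * (Real.log (R.q 0) - Real.log (R.p 0))
      + 1542 * (Real.log (R.q 1) - Real.log (R.p 1))
      + 96 * (Real.log (R.q 2) - Real.log (R.p 2))
      - 420 * (Real.log (R.q 3) - Real.log (R.p 3)) := by
  unfold Qm
  simp only [Rad.log_r h]
  rw [sum_Gp, sum_Gp]
  have e0 : ((0 : Fin 4) = 3) = False := eq_false (by decide)
  have e1 : ((1 : Fin 4) = 3) = False := eq_false (by decide)
  have e2 : ((2 : Fin 4) = 3) = False := eq_false (by decide)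
  simp only [Gp.cusp, parA, e0, e1, e2, if_true, if_false]
  push_cast
  ring

/-! ### the integer check -/

/-- upper bound of `2 ^ 40 Qm` -/
def qmUp (R : Rad) (w : Gp → ℤ) : ℤ :=
  32 * w .z1 + 32 * w .zl + 4 * w .z8 + 4 * w .zab
    + (32 * w .w1 + 32 * w .wl + 32 * w .wy + 2 * w .w8 + 2 * w .wab + 2 * w .wf7)
    + (12 * w .v2 + 4 * w .vl + 4 * w .v8 + 4 * w .vb)
    + (10 * w .x2 + 4 * w .xl + 4 * w .x1)
    + 1040 * ((up (R.q 0) : ℤ) - lo (R.p 0))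
    + 1542 * ((up (R.q 1) : ℤ) - lo (R.p 1))
    + 96 * ((up (R.q 2) : ℤ) - lo (R.p 2))
    + 420 * ((up (R.p 3) : ℤ) - lo (R.q 3))

theorem Qm_le {R : Rad} (h : R.ok = true) (w : Gp → ℤ) {ω : Gp → ℝ}
    (hω : ∀ g, ω g ≤ (w g : ℝ) / 2 ^ 40) :
    Qm parA R.r ω ≤ (qmUp R w : ℝ) / 2 ^ 40 := by
  rw [Qm_radC h, le_div_iff₀ (by positivity)]
  have hw : ∀ g, ω g * 2 ^ 40 ≤ (w g : ℝ) := fun g => by
    have := hω g
    rwa [le_div_iff₀ (by positivity)] at this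
  have u0 := le_up (R.q 0)
  have u1 := le_up (R.q 1)
  have u2 := le_up (R.q 2)
  have u3 := le_up (R.p 3)
  have l0 := lo_le (R.p 0)
  have l1 := lo_le (R.p 1)
  have l2 := lo_le (R.p 2)
  have l3 := lo_le (R.q 3)
  rw [sum_Gp]
  simp only [parA, qmUp]
  have a1 := hw .z1
  have a2 := hw .zl
  have a3 := hw .z8
  have a4 := hw .zab
  have b1 := hw .w1
  have b2 := hw .wl
  have b3 := hw .wy
  have b4 := hw .w8
  have b5 := hw .wab
  have b6 := hw .wf7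
  have c1 := hw .v2
  have c2 := hw .vl
  have c3 := hw .v8
  have c4 := hw .vb
  have d1 := hw .x2
  have d2 := hw .xl
  have d3 := hw .x1
  push_cast
  linarith

/-- the final inequality: `a / 10000 ≤ e - Qm` -/
def valCheck (R : Rad) (w : Gp → ℤ) (e a : ℤ) : Bool :=
  R.ok && decide (a * 2 ^ 40 ≤ 10000 * (e - qmUp R w))

theorem val_ge {R : Rad} {w : Gp → ℤ} {e a : ℤ} (h : valCheck R w e a = true) {ω : Gp → ℝ}
    (hω : ∀ g, ω g ≤ (w g : ℝ) / 2 ^ 40) {E : ℝ} (hE : (e : ℝ) / 2 ^ 40 ≤ E) :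
    (a / 10000 : ℝ) ≤ E - Qm parA R.r ω := by
  simp only [valCheck, Bool.and_eq_true, decide_eq_true_eq] at h
  have h1 := Qm_le h.1 w hω
  have h2 : ((a * 2 ^ 40 : ℤ) : ℝ) ≤ ((10000 * (e - qmUp R w) : ℤ) : ℝ) := by
    exact_mod_cast h.2
  push_cast at h2
  rw [le_div_iff₀ (by positivity)] at h1
  rw [div_le_iff₀ (by positivity)] at hE
  linarith

theorem stAR_mono {P : Par} {c0 : ℕ} {A A' : ℝ} (h : A' ≤ A) (hA : StAR P c0 A) :
    StAR P c0 A' := by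
  intro ε hε
  obtain ⟨s0, h0⟩ := hA ε hε
  refine ⟨s0, fun s hs σ hσ => (h0 s hs σ hσ).trans (Real.exp_le_exp.2 ?_)⟩
  nlinarith [sq_nonneg (s : ℝ)]

/-- **the archimedean bound of design A from the certificate** -/
theorem stAF_value {R : Rad} {w : Gp → ℤ} {e a : ℤ} (h : valCheck R w e a = true) {ω : Gp → ℝ}
    (hω : ∀ g, ω g ≤ (w g : ℝ) / 2 ^ 40) {E : ℝ} (hE : (e : ℝ) / 2 ^ 40 ≤ E) {c0 : ℕ}
    (hAR : StAR parA c0 (E - Qm parA R.r ω)) :
    StAF parA c0 (a / 10000) :=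
  af_of_ar (stAR_mono (val_ge h hω hE) hAR)

end Vale.Agent.P030.H284
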