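import Vale.Agent.P030.H284.Value
import Vale.Agent.P030.T.Merge

/-!
# P030, route N: the end from the certificate of design A and the odd part
-/

namespace Vale.Agent.P030.H284

open Vale.Agent.P030.T
open Vale.Agent.P030.H579 (parA)
open Vale.Agent.P030.H866 (Qm)

/-- **the irrationality of Catalan's constant** from the certificate and the odd part -/
theorem catalan_value {R : Rad} {w : Gp → ℤ} {e a : ℤ} (h : valCheck R w e a = true) {ω : Gp → ℝ}
    (hω : ∀ g, ω g ≤ (w g : ℝ) / 2 ^ 40) {E : ℝ} (hE : (e : ℝ) / 2 ^ 40 ≤ E)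
    (hAR : StAR parA 7 (E - Qm parA R.r ω)) {B : ℝ} (hOD : StOD parA 7 B)
    (hnum : B + 24164844 / 10000 ≤ a / 10000) :
    Irrational (∑' j : ℕ, (-1 : ℝ) ^ j / (2 * (j : ℝ) + 1) ^ 2) :=
  catalan_open (stAF_value h hω hE hAR) hOD hnum

end Vale.Agent.P030.H284
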